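import Vale.Agent.P127.Lab.Kit

/-! # P127 Lab/Mass (TASK): boxes that are thin in the `u` directions.
cnt_pos: image_le_mul with f omega = cell beta' (fun j : {j // j ∉ S} => a omega j): at most (2 A beta / beta' + 2)^(D - card S) <= (4 A)^D (beta/beta')^(D - card S) values (cover,
Fintype.card_subtype_compl); in a fibre norm (a omega' - a omega) <= 2 A beta' + (1 + D 2^D) beta' (Gr.norm_le_of, mv_sub, cell_close or cz_close), so at most ((8 + 2 D 2^D) A)^D cells (cover).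
mass_u: card_le_fib with f omega = cell beta' (pos omega); cnt_pos for the number of cells (u omega = mv (P z) (pos omega) at height z); a fibre lies in the R1 box with centre pos omega. -/

namespace Vale.Agent.P127

open Finset
open scoped Classical

theorem labMass_mul {Ω β γ : Type} [i : DecidableEq β] [j : DecidableEq γ] (E : Finset Ω)
    (f : Ω → β) (g : Ω → γ) {M : ℝ}
    (h : ∀ ω ∈ E, (((E.filter fun ω' => f ω' = f ω).image g).card : ℝ) ≤ M) :
    ((E.image g).card : ℝ) ≤ (E.image f).card * M := by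
  obtain rfl : i = fun a b => Classical.propDecidable (a = b) := Subsingleton.elim _ _
  obtain rfl : j = fun a b => Classical.propDecidable (a = b) := Subsingleton.elim _ _
  exact image_le_mul E f g h

theorem labMass_fib {Ω β : Type} [i : DecidableEq β] (E : Finset Ω) (f : Ω → β) {M : ℝ}
    (h : ∀ ω ∈ E, ((E.filter fun ω' => f ω' = f ω).card : ℝ) ≤ M) :
    (E.card : ℝ) ≤ (E.image f).card * M := by
  obtain rfl : i = fun a b => Classical.propDecidable (a = b) := Subsingleton.elim _ _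
  exact card_le_fib E f h

theorem cnt_pos (D : ℕ) : ∃ C ≥ (1 : ℝ), ∀ {S : Finset (Fin D)} {P : ℝ → Mt D}, Gr S P →
    ∀ {Ω : Type} (F : Finset Ω) (a : Ω → V D) (A z β β' : ℝ) (q q' : V D), 1 ≤ A → 0 < β' → β' ≤ β →
    (∀ ω ∈ F, ‖mv (P z) (a ω) - q‖ ≤ A * β' ∧ ‖a ω - q'‖ ≤ A * β) →
    ((F.image fun ω => cell β' (a ω)).card : ℝ) ≤ C * A ^ (2 * D) * (β / β') ^ (D - S.card) := by
  have hc : (0 : ℝ) ≤ D * 2 ^ D := by positivity
  refine ⟨4 ^ D * (8 + 2 * (D * 2 ^ D)) ^ D, one_le_mul_of_one_le_of_one_le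
    (one_le_pow₀ (by norm_num)) (one_le_pow₀ (by linarith)), ?_⟩
  intro S P hG Ω F a A z β β' q q' hA hβ' hβ h
  have hβ0 : 0 < β := hβ'.trans_le hβ
  have hr : 1 ≤ β / β' := (one_le_div hβ').2 hβ
  have h1 := cover F (fun ω (j : {j // j ∉ S}) => a ω j) (fun j => q' j) hβ'
    (ρ := A * β) (by positivity) fun ω hω => (pi_norm_le_iff_of_nonneg (by positivity)).2 fun j =>
      (norm_le_pi_norm (a ω - q') j).trans (h ω hω).2
  have h2 : Fintype.card {j // j ∉ S} = D - S.card := by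
    rw [Fintype.card_subtype_compl, Fintype.card_fin, Fintype.card_coe]
  rw [h2] at h1
  have h3 : (2 * (A * β) / β' + 2) ^ (D - S.card) ≤ (4 * A) ^ D * (β / β') ^ (D - S.card) := by
    refine le_trans ?_ (mul_le_mul_of_nonneg_right
      (pow_le_pow_right₀ (by linarith) (Nat.sub_le D S.card)) (by positivity))
    rw [← mul_pow]
    refine pow_le_pow_left₀ (by positivity) ?_ _
    rw [mul_div_assoc, mul_div_assoc]
    nlinarith [mul_le_mul hA hr zero_le_one (by linarith)]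
  refine (labMass_mul F (fun ω => cell β' fun j : {j // j ∉ S} => a ω j) _
    (M := ((8 + 2 * (D * 2 ^ D)) * A) ^ D) fun ω hω => ?_).trans ?_
  · refine (cover _ a (a ω) hβ' (ρ := 2 * (A * β') + (1 + D * 2 ^ D) * β') (by positivity)
      fun ω' hω' => ?_).trans ?_
    · obtain ⟨h4, h5⟩ := mem_filter.1 hω'
      refine (hG.norm_le_of z (a ω' - a ω) hβ'.le fun j hj =>
        cz_close hβ' (congrFun h5 ⟨j, hj⟩)).trans ?_
      have h6 := norm_sub_le_norm_sub_add_norm_sub (mv (P z) (a ω')) q (mv (P z) (a ω))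
      rw [norm_sub_rev q] at h6
      rw [mv_sub]
      linarith [(h ω hω).1, (h ω' h4).1]
    · rw [Fintype.card_fin]
      refine pow_le_pow_left₀ (by positivity) ?_ _
      have e : 2 * (2 * (A * β') + (1 + D * 2 ^ D) * β') / β' = 4 * A + 2 + 2 * (D * 2 ^ D) := by
        field_simp
        ring
      rw [e]
      nlinarith [mul_le_mul_of_nonneg_left hA hc]
  · refine (mul_le_mul_of_nonneg_right (h1.trans h3) (by positivity)).trans (le_of_eq ?_)
    rw [mul_pow, mul_pow, two_mul D, pow_add]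
    ring

theorem mass_u (D : ℕ) : ∃ C ≥ (1 : ℝ), ∀ {σ : ℝ} {d : Dat D} {N K : ℝ}, Gr d.S d.P →
    R1 σ d.c N K → 1 ≤ N → 0 ≤ K → 0 < d.c.nL →
    ∀ (A z α β β' : ℝ) (p q q' : V D), 1 ≤ A → 1 / N ≤ β' → β' ≤ β → β' ≤ α → α ≤ 1 →
    ((d.c.E.filter fun ω => ω.2 = z ∧ ‖d.c.e ω.1 - p‖ ≤ A * α ∧ ‖d.u ω - q‖ ≤ A * β' ∧
      ‖d.c.pos ω - q'‖ ≤ A * β).card : ℝ) ≤
      C * A ^ (4 * D) * K * d.c.nL * β' ^ ((D : ℝ) - σ) * α ^ σ * (β / β') ^ (D - d.S.card) := by
  obtain ⟨C, hC, h⟩ := cnt_pos D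
  refine ⟨C, hC, ?_⟩
  intro σ d N K hG hR hN hK hL A z α β β' p q q' hA h1 h2 h3 h4
  have hβ' : 0 < β' := lt_of_lt_of_le (by positivity) h1
  have hα : 0 < α := hβ'.trans_le h3
  refine (labMass_fib _ (fun ω => cell β' (d.c.pos ω))
    (M := A ^ (2 * D) * K * d.c.nL * β' ^ ((D : ℝ) - σ) * α ^ σ) fun ω _ => ?_).trans ?_
  · refine le_trans (Nat.cast_le.2 (card_le_card fun ω' hω' => ?_))
      (hR A z α β' p (d.c.pos ω) hA h1 h3 h4)
    obtain ⟨h5, h6⟩ := mem_filter.1 hω'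
    obtain ⟨h7, h8, h9, -⟩ := mem_filter.1 h5
    exact mem_filter.2 ⟨h7, h8, h9, (cell_close hβ' h6).trans (le_mul_of_one_le_left hβ'.le hA)⟩
  · refine (mul_le_mul_of_nonneg_right (h hG _ d.c.pos A z β β' q q' hA hβ' h2 fun ω hω => ?_)
      (by positivity)).trans (le_of_eq ?_)
    · obtain ⟨-, rfl, -, h5⟩ := mem_filter.1 hω
      exact h5
    · rw [show 4 * D = 2 * D + 2 * D by ring, pow_add]
      ring

end Vale.Agent.P127
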