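import Vale.Agent.P127.Lab.Cnt
import Vale.Agent.P127.Lab.Mass

/-! # P127 Lab/CntU (TASK): number of cells of `u` at the scales of `T`.
pop on E with I = T, f rho = Wm c rho rho, R rho = 32^D K^2 N / rho^D (cnt_f1): fibres in E3 have at least nL rho^D / (2 * 32^D K^4) elements (mass, 0 < card T <= K).
dbl on E3 with U omega = (omega.2, cell rho (u omega)), g omega = (omega.2, cell (1/N) (u omega)), rel omega' omega = (Wm omega' = Wm omega).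
h1: card_le_fib on the fibre with f = g; a part lies in the mass_u box A = 1, alpha = beta = rho, beta' = 1/N, p = e omega.1, q = u omega', q' = pos omega, so it has at most
C1 K nL (1/N)^(D - sigma) rho^sigma (rho N)^(D - m) elements; hence a = (rho N)^(m - sigma) / (2 * 32^D C1 K^5) (m = card S <= D, Nat.cast_sub, Real.rpow_natCast).
h2: such an omega has the height of omega0 and norm (u omega - u omega0) <= D 2^D rho + 1/N <= (D 2^D + 1) rho (norm_mv, Gr.norm_le, mv_sub, cell_close), so b = (2 (D 2^D + 1) + 2)^D (cover).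
card (E3.image g) <= K N N^(m - sigma) by CK. -/

namespace Vale.Agent.P127

open Finset
open scoped Classical

theorem labCntU_id {ρ N σ : ℝ} (hρ : 0 < ρ) (hN : 0 < N) {m D : ℕ} (h : m ≤ D) :
    (1 / N) ^ ((D : ℝ) - σ) * ρ ^ σ * (ρ / (1 / N)) ^ (D - m) * (ρ * N) ^ ((m : ℝ) - σ) =
      ρ ^ D := by
  have h1 : ρ / (1 / N) = ρ * N := by field_simp
  have h2 : (ρ * N) ^ (D - m) * (ρ * N) ^ ((m : ℝ) - σ) =
      ρ ^ ((D : ℝ) - σ) * N ^ ((D : ℝ) - σ) := by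
    rw [← Real.rpow_natCast, Nat.cast_sub h, ← Real.rpow_add (by positivity),
      ← Real.mul_rpow hρ.le hN.le]
    congr 1
    ring
  have h3 : ρ ^ σ * ρ ^ ((D : ℝ) - σ) = ρ ^ D := by
    rw [← Real.rpow_add hρ, ← Real.rpow_natCast]
    congr 1
    ring
  have h4 : 0 < N ^ ((D : ℝ) - σ) := Real.rpow_pos_of_pos hN _
  rw [h1, mul_assoc, h2, one_div, Real.inv_rpow hN.le, ← h3]
  field_simp

theorem labCntU_h2 {D : ℕ} {d : Dat D} (hG : Gr d.S d.P) {N ρ : ℝ} (hN : 0 < N) (h1 : 1 / N ≤ ρ)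
    (E : Finset (ℕ × ℝ)) (ω0 : ℕ × ℝ) :
    (((E.filter fun ω => ∃ ω' ∈ E, Wm d.c ρ ρ ω' = Wm d.c ρ ρ ω ∧
      (ω'.2, cell (1 / N) (d.u ω')) = (ω0.2, cell (1 / N) (d.u ω0))).image
        fun ω => (ω.2, cell ρ (d.u ω))).card : ℝ) ≤ (2 * (D * 2 ^ D + 1) + 2) ^ D := by
  have hN' : 0 < 1 / N := by positivity
  have hρ : 0 < ρ := hN'.trans_le h1
  obtain ⟨G, hGd⟩ : ∃ G, G = E.filter fun ω => ∃ ω' ∈ E, Wm d.c ρ ρ ω' = Wm d.c ρ ρ ω ∧
      (ω'.2, cell (1 / N) (d.u ω')) = (ω0.2, cell (1 / N) (d.u ω0)) := ⟨_, rfl⟩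
  rw [← hGd]
  have key : ∀ ω ∈ G, ω.2 = ω0.2 ∧ ‖d.u ω - d.u ω0‖ ≤ (D * 2 ^ D + 1) * ρ := by
    intro ω hω
    rw [hGd] at hω
    obtain ⟨-, ω', -, h2, h3⟩ := mem_filter.1 hω
    have e1 : ω'.2 = ω.2 := congrArg Prod.fst h2
    have e2 : ω'.2 = ω0.2 := congrArg Prod.fst h3
    have e3 : ‖d.c.pos ω - d.c.pos ω'‖ ≤ ρ :=
      cell_close hρ (congrArg (fun p => p.2.2) h2).symm
    have e4 : ‖d.u ω' - d.u ω0‖ ≤ 1 / N := cell_close hN' (congrArg Prod.snd h3)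
    have e5 : ‖d.u ω - d.u ω'‖ ≤ D * 2 ^ D * ρ := by
      rw [Dat.u, Dat.u, e1, ← mv_sub]
      refine (norm_mv _ _).trans ?_
      have := hG.norm_le ω.2
      gcongr
    refine ⟨e1.symm.trans e2, ?_⟩
    have := norm_sub_le_norm_sub_add_norm_sub (d.u ω) (d.u ω') (d.u ω0)
    linarith
  have hc := cover G d.u (d.u ω0) hρ (by positivity) fun ω hω => (key ω hω).2
  have e : 2 * ((D * 2 ^ D + 1) * ρ) / ρ + 2 = 2 * ((D : ℝ) * 2 ^ D + 1) + 2 := by field_simp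
  rw [e, Fintype.card_fin] at hc
  refine le_trans (Nat.cast_le.2 ?_) hc
  refine le_trans (card_le_card (t := (G.image fun ω => cell ρ (d.u ω)).image
    fun x => (ω0.2, x)) fun y hy => ?_) card_image_le
  obtain ⟨ω, hω, rfl⟩ := mem_image.1 hy
  exact mem_image.2 ⟨_, mem_image_of_mem _ hω, by rw [(key ω hω).1]⟩

theorem cnt_U (D : ℕ) : ∃ C ≥ (1 : ℝ), ∀ {σ : ℝ} {m : ℕ} {d : Dat D} {N K : ℝ} {T : Finset ℝ},
    CK σ m d N K → R1 σ d.c N K → Sc T N K → 1 ≤ N → 1 ≤ K → 0 ≤ σ → σ ≤ m →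
    ∃ E3 ⊆ d.c.E, (d.c.E.card : ℝ) / 2 ≤ E3.card ∧ ∀ ρ ∈ T,
      ((E3.image fun ω => (ω.2, cell ρ (d.u ω))).card : ℝ) ≤ C * K ^ 6 * N / ρ ^ ((m : ℝ) - σ) := by
  obtain ⟨C1, hC1, hm⟩ := mass_u D
  have hB : (1 : ℝ) ≤ (2 * (D * 2 ^ D + 1) + 2) ^ D :=
    one_le_pow₀ (by linarith [(by positivity : (0 : ℝ) ≤ D * 2 ^ D)])
  have h32 : (1 : ℝ) ≤ 32 ^ D := one_le_pow₀ (by norm_num)
  obtain ⟨B, hBd⟩ : ∃ B : ℝ, B = (2 * (D * 2 ^ D + 1) + 2) ^ D := ⟨_, rfl⟩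
  rw [← hBd] at hB
  refine ⟨2 * 32 ^ D * C1 * B, one_le_mul_of_one_le_of_one_le
    (one_le_mul_of_one_le_of_one_le (by linarith) hC1) hB, ?_⟩
  intro σ m d N K T hck hr hs hN hK hσ hσm
  obtain ⟨hS, hg, hG, hcard⟩ := hck
  have hN0 : 0 < N := by linarith
  have hK0 : 0 < K := by linarith
  have hN' : 0 < 1 / N := by positivity
  have hL := hg.nL_pos
  have hmD : m ≤ D := by
    rw [← hS]
    simpa using card_le_univ d.S
  obtain ⟨E3, hsub, hhalf, hfib⟩ := pop d.c.E T (fun ρ => Wm d.c ρ ρ)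
    (fun ρ => 32 ^ D * K ^ 2 * N / ρ ^ D) fun ρ hρ => by
      simpa only [image_cd, filter_cd] using cnt_f1 hg hN hK (hs.2.1 ρ hρ).1 (hs.2.1 ρ hρ).2
  refine ⟨E3, hsub, hhalf, fun ρ hρT => ?_⟩
  obtain ⟨h1, h2⟩ := hs.2.1 ρ hρT
  have hρ : 0 < ρ := hN'.trans_le h1
  have hT : (0 : ℝ) < T.card := Nat.cast_pos.2 (card_pos.2 ⟨ρ, hρT⟩)
  have hX : 0 < (ρ * N) ^ ((m : ℝ) - σ) := Real.rpow_pos_of_pos (by positivity) _
  have hlow : d.c.nL * ρ ^ D / (2 * 32 ^ D * K ^ 4) ≤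
      (d.c.E.card : ℝ) / (2 * T.card * (32 ^ D * K ^ 2 * N / ρ ^ D)) := by
    have e : d.c.nL * ρ ^ D / (2 * 32 ^ D * K ^ 4) =
        d.c.nL * N / K / (2 * K * (32 ^ D * K ^ 2 * N / ρ ^ D)) := by field_simp
    rw [e]
    have := hg.mass
    have := hs.1
    gcongr
  have hd := dbl E3 (fun ω => (ω.2, cell ρ (d.u ω))) (fun ω => (ω.2, cell (1 / N) (d.u ω)))
    (fun ω' ω => Wm d.c ρ ρ ω' = Wm d.c ρ ρ ω)
    (a := (ρ * N) ^ ((m : ℝ) - σ) / (2 * 32 ^ D * C1 * K ^ 5)) (b := B) (fun ω hω => ?_)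
    (fun ω0 _ => by 
      rw [hBd]
      simpa only [image_cd, filter_cd] using labCntU_h2 hG hN0 h1 E3 ω0)
  · have h3 : ((E3.image fun ω => (ω.2, cell (1 / N) (d.u ω))).card : ℝ) ≤
        K * N * N ^ ((m : ℝ) - σ) :=
      le_trans (Nat.cast_le.2 (card_le_card (image_subset_image hsub))) hcard
    have h4 : ((E3.image fun ω => (ω.2, cell ρ (d.u ω))).card : ℝ) *
        ((ρ * N) ^ ((m : ℝ) - σ) / (2 * 32 ^ D * C1 * K ^ 5)) ≤
        K * N * N ^ ((m : ℝ) - σ) * B := by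
      refine le_trans (by simpa only [image_cd, filter_cd] using hd) (mul_le_mul_of_nonneg_right h3 (by linarith))
    rw [← le_div_iff₀ (by positivity)] at h4
    refine h4.trans_eq ?_
    have h5 : 0 < N ^ ((m : ℝ) - σ) := Real.rpow_pos_of_pos hN0 _
    have h6 : 0 < ρ ^ ((m : ℝ) - σ) := Real.rpow_pos_of_pos hρ _
    rw [Real.mul_rpow hρ.le hN0.le]
    field_simp
  · obtain ⟨M, hM⟩ : ∃ M : ℝ, M = C1 * 1 ^ (4 * D) * K * d.c.nL * (1 / N) ^ ((D : ℝ) - σ) *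
      ρ ^ σ * (ρ / (1 / N)) ^ (D - d.S.card) := ⟨_, rfl⟩
    have hM0 : 0 < M := by rw [hM]; positivity
    have h3 := card_le_fib (E3.filter fun ω' => Wm d.c ρ ρ ω' = Wm d.c ρ ρ ω)
      (fun ω => (ω.2, cell (1 / N) (d.u ω))) (M := M) fun ω' _ => by
        rw [hM]
        refine le_trans (Nat.cast_le.2 (card_le_card fun ω'' h'' => ?_))
          (hm hG hr hN hK0.le hL 1 ω'.2 ρ ρ (1 / N) (d.c.e ω.1) (d.u ω') (d.c.pos ω) le_rfl
            le_rfl h1 h1 h2)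
        simp only [mem_filter] at h'' ⊢
        obtain ⟨⟨a1, a2⟩, a3⟩ := h''
        simp only [one_mul]
        exact ⟨hsub a1, congrArg Prod.fst a3, cell_close hρ (congrArg (fun p => p.2.1) a2),
          cell_close hN' (congrArg Prod.snd a3), cell_close hρ (congrArg (fun p => p.2.2) a2)⟩
    have h4 := hlow.trans (hfib ρ hρT ω hω)
    have h5 : (ρ * N) ^ ((m : ℝ) - σ) / (2 * 32 ^ D * C1 * K ^ 5) * M =
        d.c.nL * ρ ^ D / (2 * 32 ^ D * K ^ 4) := by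
      rw [hM, hS, ← labCntU_id (σ := σ) hρ hN0 hmD, one_pow]
      field_simp
    refine le_of_mul_le_mul_right ?_ hM0
    rw [h5]
    refine le_trans h4 ?_
    simpa only [image_cd, filter_cd] using h3

end Vale.Agent.P127
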