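import Vale.Agent.P127.Api

/-! # P127 Lab/Kit: definitions and small tools for the block LAB. -/

namespace Vale.Agent.P127

open Finset
open scoped Classical

variable {D : ℕ}

/-- a net of scales between `1 / N` and `1` -/
def Sc (T : Finset ℝ) (N K : ℝ) : Prop :=
  (T.card : ℝ) ≤ K ∧ (∀ ρ ∈ T, 1 / N ≤ ρ ∧ ρ ≤ 1) ∧
    ∀ r : ℝ, 1 / N ≤ r → r ≤ 1 → ∃ ρ ∈ T, r ≤ ρ ∧ ρ ≤ 2 * r

/-- height, cell of the direction, cell of the position -/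
noncomputable def Wm (c : Cfg D) (α β : ℝ) (ω : ℕ × ℝ) : ℝ × (Fin D → ℤ) × (Fin D → ℤ) :=
  (ω.2, cell α (c.e ω.1), cell β (c.pos ω))

/-- the points whose `Wm` fibre is heavy -/
noncomputable def Hv (σ : ℝ) (c : Cfg D) (K2 α β : ℝ) : Finset (ℕ × ℝ) :=
  c.E.filter fun ω => K2 * c.nL * β ^ ((D : ℝ) - σ) * α ^ σ <
    ((c.E.filter fun ω' => Wm c α β ω' = Wm c α β ω).card : ℝ)

def R1 (σ : ℝ) (c : Cfg D) (N K : ℝ) : Prop :=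
  ∀ (A z α β : ℝ) (p q : V D), 1 ≤ A → 1 / N ≤ β → β ≤ α → α ≤ 1 →
    ((c.E.filter fun ω => ω.2 = z ∧ ‖c.e ω.1 - p‖ ≤ A * α ∧ ‖c.pos ω - q‖ ≤ A * β).card : ℝ) ≤
      A ^ (2 * D) * K * c.nL * β ^ ((D : ℝ) - σ) * α ^ σ

def R2 (σ : ℝ) (c : Cfg D) (N K : ℝ) : Prop :=
  ∀ (z0 α α' : ℝ) (p q : V D), 1 / N ≤ α' → α' ≤ α → α ≤ 1 →
    (((c.E.filter fun ω => |ω.2 - z0| ≤ α' ∧ ‖c.pos ω - q‖ ≤ α' ∧
      ‖c.e ω.1 - p‖ ≤ α).image fun ω => cell α' (c.e ω.1)).card : ℝ) ≤ K * (α / α') ^ σ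

def R3 (σ : ℝ) (m : ℕ) (d : Dat D) (N K : ℝ) : Prop :=
  ∀ (z β β' : ℝ) (q : V D), 1 / N ≤ β' → β' ≤ β → β ≤ 1 →
    (((d.c.E.filter fun ω => ω.2 = z ∧ ‖d.u ω - q‖ ≤ β).image
      fun ω => cell β' (d.u ω)).card : ℝ) ≤ K * (β / β') ^ ((m : ℝ) - σ)

/-- double counting: every coarse cell `U ω` is related to at least `a` fine cells, every fine
cell to at most `b` coarse cells -/
theorem dbl {Ω β γ : Type} (E : Finset Ω) (U : Ω → β) (g : Ω → γ) (rel : Ω → Ω → Prop) {a b : ℝ}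
    (h1 : ∀ ω ∈ E, a ≤ (((E.filter fun ω' => rel ω' ω).image g).card : ℝ))
    (h2 : ∀ ω0 ∈ E, (((E.filter fun ω => ∃ ω' ∈ E, rel ω' ω ∧ g ω' = g ω0).image U).card : ℝ) ≤ b) :
    ((E.image U).card : ℝ) * a ≤ (E.image g).card * b := by
  rw [← nsmul_eq_mul, ← nsmul_eq_mul]
  refine card_nsmul_le_card_nsmul (fun x y => ∃ ω ∈ E, U ω = x ∧ ∃ ω' ∈ E, rel ω' ω ∧ g ω' = y)
    (fun x hx => ?_) fun y hy => ?_
  · obtain ⟨ω, hω, rfl⟩ := mem_image.1 hx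
    refine (h1 ω hω).trans (Nat.cast_le.2 (card_le_card fun y hy => ?_))
    obtain ⟨ω', h', rfl⟩ := mem_image.1 hy
    obtain ⟨h3, h4⟩ := mem_filter.1 h'
    exact mem_filter.2 ⟨mem_image_of_mem g h3, ω, hω, rfl, ω', h3, h4, rfl⟩
  · obtain ⟨ω0, hω0, rfl⟩ := mem_image.1 hy
    refine le_trans (Nat.cast_le.2 (card_le_card fun x hx => ?_)) (h2 ω0 hω0)
    obtain ⟨_, ω, hω, rfl, h3⟩ := mem_filter.1 hx
    exact mem_image_of_mem U (mem_filter.2 ⟨hω, h3⟩)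

end Vale.Agent.P127
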