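import Vale.Agent.P127.Zoom
import Vale.Agent.P127.Lab.Kit

/-! # P127 Lab/Heavy (TASK): few points have a heavy fibre.
Put N' = alpha / beta (1 <= N' <= N), nat = nL beta^(D - sigma) alpha^sigma, so alpha^D nL = nat * N'^(D - sigma).
Case N' <= Lam: Hv is empty. A fibre injects (omega.1; the height is fixed) in the lines with norm (e i - e omega.1) <= alpha (cell_close, h.sub), at most K alpha^D nL (dirs),
and N'^(D - sigma) <= N'^D <= Lam^(D+1).
Case Lam <= N': if the claim fails, nL N / (2 K^3) <= card Hv (h.mass), so zoom (E' = Hv, K' = 2 K^3, alpha / N' = beta) gives xc, ec, c' and hPK applies to c'.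
fib_le_card (E := c'.E, E0 := c.E, f := Wm c alpha beta): card (c'.E.image Wm) * (K2 nat) <= card of the omega' in c.E with omega'.2 in c'.Z and norm (e omega'.1 - ec) <= alpha
(same cell as ec; use c'.sub) <= (N' + 2) * K alpha^D nL <= 3 N' K alpha^D nL (subset of a product).
image_le_mul (f := Wm, g := (omega.2, cell (1/N') (c'.pos omega))): c'.pos omega' - c'.pos omega = alpha⁻¹ • (c.pos omega' - c.pos omega) at equal heights, norm <= 1/N', so at most 4^D
values (cover; the first coordinate is constant). Hence N'^(D+1-sigma) / Lam <= 4^D * 3 N' K N'^(D-sigma) / K2 <= (3/4) N'^(D+1-sigma) / Lam, false. -/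

namespace Vale.Agent.P127

open Finset
open scoped Classical

variable {D : ℕ}

theorem labHeavy_img {Ω β γ : Type} [DecidableEq β] [DecidableEq γ] (E : Finset Ω) (f : Ω → β)
    (g : Ω → γ) {M : ℝ}
    (h : ∀ ω ∈ E, (((E.filter fun ω' => f ω' = f ω).image g).card : ℝ) ≤ M) :
    ((E.image g).card : ℝ) ≤ (E.image f).card * M := by
  obtain rfl : ‹DecidableEq β› = fun a b => Classical.propDecidable (a = b) := Subsingleton.elim _ _
  obtain rfl : ‹DecidableEq γ› = fun a b => Classical.propDecidable (a = b) := Subsingleton.elim _ _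
  exact image_le_mul E f g h

theorem labHeavy_fib {Ω β : Type} [DecidableEq β] (E E0 : Finset Ω) (f : Ω → β) {M : ℝ}
    (h : ∀ ω ∈ E, M ≤ ((E0.filter fun ω' => f ω' = f ω).card : ℝ)) (S : Finset Ω)
    (hS : ∀ ω' ∈ E0, ∀ ω ∈ E, f ω' = f ω → ω' ∈ S) :
    ((E.image f).card : ℝ) * M ≤ S.card := by
  obtain rfl : ‹DecidableEq β› = fun a b => Classical.propDecidable (a = b) := Subsingleton.elim _ _
  refine (fib_le_card E E0 f h).trans (Nat.cast_le.2 (card_le_card fun ω' hω' => ?_))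
  obtain ⟨h1, h2⟩ := mem_filter.1 hω'
  obtain ⟨ω, hω, e⟩ := mem_image.1 h2
  exact hS ω' h1 ω hω e.symm

theorem heavy_le {σ : ℝ} {c : Cfg D} {N K Λ α β : ℝ} (h : Good c N N K) (hN : 1 ≤ N) (hK : 1 ≤ K)
    (hΛ : 1 ≤ Λ) (h0 : 0 ≤ σ) (hD : σ ≤ D)
    (hPK : ∀ N' : ℝ, Λ ≤ N' → N' ≤ N → ∀ c' : Cfg D,
      Good c' N' N' (4 ^ (D + 1) * K ^ 2 * (2 * K ^ 3)) → N' ^ ((D : ℝ) + 1 - σ) / Λ ≤
        ((c'.E.image fun ω => (ω.2, cell (1 / N') (c'.pos ω))).card : ℝ))
    (h1 : 1 / N ≤ β) (h2 : β ≤ α) (h3 : α ≤ 1) :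
    ((Hv σ c (4 ^ (D + 1) * K * Λ ^ (D + 1)) α β).card : ℝ) ≤ c.E.card / (2 * K ^ 2) := by
  have hN0 : 0 < N := by linarith
  have hK0 : 0 < K := by linarith
  have hβ : 0 < β := lt_of_lt_of_le (by positivity) h1
  have hα : 0 < α := hβ.trans_le h2
  have hnL := h.nL_pos
  obtain ⟨N', hN'⟩ : ∃ N', N' = α / β := ⟨_, rfl⟩
  have n1 : 1 ≤ N' := by rw [hN', le_div_iff₀ hβ]; linarith
  have n0 : 0 < N' := by linarith
  have n2 : N' ≤ N := by
    rw [hN', div_le_iff₀ hβ]
    rw [div_le_iff₀ hN0] at h1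
    linarith
  obtain ⟨nt, hnt⟩ : ∃ nt, nt = c.nL * β ^ ((D : ℝ) - σ) * α ^ σ := ⟨_, rfl⟩
  have t0 : 0 < nt := by rw [hnt]; positivity
  obtain ⟨Q, hQ⟩ : ∃ Q, Q = N' ^ ((D : ℝ) - σ) := ⟨_, rfl⟩
  have q0 : 0 < Q := by rw [hQ]; positivity
  have e1 : α ^ D * c.nL = nt * Q := by
    have e : α ^ D = α ^ σ * α ^ ((D : ℝ) - σ) := by
      rw [← Real.rpow_add hα, add_sub_cancel, Real.rpow_natCast]
    have : 0 < β ^ ((D : ℝ) - σ) := by positivity
    rw [hnt, hQ, hN', Real.div_rpow hα.le hβ.le, e]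
    field_simp
  have hL : ∀ p : V D, ((c.L.filter fun i => ‖c.e i - p‖ ≤ α).card : ℝ) ≤ K * (nt * Q) := fun p => by
    rw [← e1, ← mul_assoc]
    exact h.dirs p α (h1.trans h2)
  have hHv : ∀ ω ∈ Hv σ c (4 ^ (D + 1) * K * Λ ^ (D + 1)) α β,
      4 ^ (D + 1) * K * Λ ^ (D + 1) * nt <
        ((c.E.filter fun ω' => Wm c α β ω' = Wm c α β ω).card : ℝ) := fun ω hω => by
    have := (mem_filter.1 hω).2
    rwa [mul_assoc, mul_assoc, ← mul_assoc c.nL, ← hnt] at this
  have l1 : Λ ≤ Λ ^ (D + 1) := le_self_pow₀ hΛ (Nat.succ_ne_zero D)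
  have f1 : (1 : ℝ) ≤ 4 ^ (D + 1) := one_le_pow₀ (by norm_num)
  rcases le_total N' Λ with hc | hc
  · have he : Hv σ c (4 ^ (D + 1) * K * Λ ^ (D + 1)) α β = ∅ := by
      refine eq_empty_of_forall_notMem fun ω hω => not_le.2 (hHv ω hω) ?_
      have a1 : (c.E.filter fun ω' => Wm c α β ω' = Wm c α β ω) ⊆
          (c.L.filter fun i => ‖c.e i - c.e ω.1‖ ≤ α) ×ˢ {ω.2} := fun ω' hω' => by
        obtain ⟨b1, b2⟩ := mem_filter.1 hω'
        exact mem_product.2 ⟨mem_filter.2 ⟨(mem_product.1 (h.sub b1)).1,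
          cell_close hα (congrArg (fun p => p.2.1) b2)⟩, mem_singleton.2 (congrArg Prod.fst b2)⟩
      have a2 := card_le_card a1
      rw [card_product, card_singleton, mul_one] at a2
      refine (Nat.cast_le.2 a2).trans ((hL _).trans ?_)
      have a3 : Q ≤ Λ ^ (D + 1) := by
        rw [hQ, ← Real.rpow_natCast]
        refine (Real.rpow_le_rpow n0.le hc (by linarith)).trans
          (Real.rpow_le_rpow_of_exponent_le hΛ ?_)
        push_cast
        linarith
      calc K * (nt * Q) ≤ K * (nt * Λ ^ (D + 1)) := by gcongr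
        _ = 1 * (K * Λ ^ (D + 1) * nt) := by ring
        _ ≤ 4 ^ (D + 1) * (K * Λ ^ (D + 1) * nt) := by gcongr
        _ = _ := by ring
    rw [he, card_empty, Nat.cast_zero]
    positivity
  by_contra hcon
  have hm : c.nL * N / (2 * K ^ 3) ≤ (Hv σ c (4 ^ (D + 1) * K * Λ ^ (D + 1)) α β).card := by
    refine le_trans ?_ (not_le.1 hcon).le
    calc c.nL * N / (2 * K ^ 3) = c.nL * N / K / (2 * K ^ 2) := by field_simp
      _ ≤ _ := div_le_div_of_nonneg_right h.mass (by positivity)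
  obtain ⟨xc, ec, c', z1, -, z3, z4, z5, z6, z7⟩ := zoom (N' := N') h (filter_subset _ _) hm hN hK
    (by nlinarith [one_le_pow₀ (n := 3) hK]) hα h3 n1 n2 (by
      rw [hN', div_div_cancel₀ hα.ne']
      exact h1)
  have p1 := hPK N' hc n2 c' z7
  have p2 := labHeavy_img c'.E (Wm c α β) (fun ω => (ω.2, cell (1 / N') (c'.pos ω)))
    (M := 4 ^ D) fun ω _ => by
      have b1 := cover (c'.E.filter fun ω' => Wm c α β ω' = Wm c α β ω) c'.pos (c'.pos ω)
        (β := 1 / N') (ρ := 1 / N') (by positivity) (by positivity) fun ω' hω' => by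
          have b2 := (mem_filter.1 hω').2
          have b3 : ω'.2 = ω.2 := congrArg Prod.fst b2
          have b4 : c'.pos ω' - c'.pos ω = α⁻¹ • (c.pos ω' - c.pos ω) := by
            simp only [Cfg.pos, z4, z5, b3]
            module
          rw [b4, norm_smul, norm_inv, Real.norm_eq_abs, abs_of_pos hα, hN', one_div_div,
            div_eq_inv_mul]
          exact mul_le_mul_of_nonneg_left (cell_close hβ (congrArg (fun p => p.2.2) b2))
            (by positivity)
      have b5 : 2 * (1 / N') / (1 / N') + 2 = 4 := by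
        field_simp
        norm_num
      rw [b5, Fintype.card_fin] at b1
      refine le_trans (Nat.cast_le.2 ?_) b1
      refine card_le_card_of_injOn Prod.snd (fun p hp => ?_) fun p hp p' hp' e => ?_
      · obtain ⟨ω', hω', rfl⟩ := mem_image.1 (mem_coe.1 hp)
        exact mem_coe.2 (mem_image.2 ⟨ω', hω', rfl⟩)
      · obtain ⟨ω', hω', rfl⟩ := mem_image.1 (mem_coe.1 hp)
        obtain ⟨ω'', hω'', rfl⟩ := mem_image.1 (mem_coe.1 hp')
        exact Prod.ext ((congrArg Prod.fst (mem_filter.1 hω').2).trans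
          (congrArg Prod.fst (mem_filter.1 hω'').2).symm) e
  have p3 := labHeavy_fib c'.E c.E (Wm c α β) (fun ω hω => (hHv ω (z1 hω)).le)
    ((c.L.filter fun i => ‖c.e i - ec‖ ≤ α) ×ˢ c'.Z) fun ω' hω' ω hω b2 => by
      have b1 := mem_product.1 (z7.sub hω)
      refine mem_product.2 ⟨mem_filter.2 ⟨(mem_product.1 (h.sub hω')).1, cell_close hα ?_⟩, ?_⟩
      · exact (congrArg (fun p => p.2.1) b2).trans (z3 _ b1.1).2.1
      · have b3 : ω'.2 = ω.2 := congrArg Prod.fst b2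
        rw [b3]
        exact b1.2
  rw [card_product, Nat.cast_mul] at p3
  obtain ⟨w, hw⟩ : ∃ w : ℝ, w = (c'.E.image (Wm c α β)).card := ⟨_, rfl⟩
  have w0 : 0 ≤ w := by rw [hw]; positivity
  rw [← hw] at p2 p3
  have p4 : w * (4 ^ (D + 1) * Λ ^ (D + 1)) * (K * nt) ≤ 3 * (N' * Q) * (K * nt) := by
    calc _ = w * (4 ^ (D + 1) * K * Λ ^ (D + 1) * nt) := by ring
      _ ≤ _ := p3
      _ ≤ K * (nt * Q) * (3 * N') :=
        mul_le_mul (hL ec) (by linarith) (Nat.cast_nonneg _) (by positivity)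
      _ = _ := by ring
  have p5 := le_of_mul_le_mul_right p4 (by positivity)
  have e2 : N' ^ ((D : ℝ) + 1 - σ) = N' * Q := by
    rw [hQ, add_sub_right_comm, Real.rpow_add_one n0.ne', mul_comm]
  have p6 := p1.trans p2
  rw [e2, div_le_iff₀ (by linarith)] at p6
  have p7 : w * 4 ^ D * Λ ≤ w * 4 ^ D * Λ ^ (D + 1) := by gcongr
  have p8 : 0 < N' * Q := by positivity
  rw [pow_succ 4] at p5
  nlinarith

end Vale.Agent.P127
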