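import Vale.Agent.P127.Lab.Kit

/-! # P127 Lab/One (TASK): remove the heavy points.
E1 = c.E minus the union of Hv sigma c K2 alpha beta over the pairs (alpha, beta) in T x T with beta <= alpha (at most K^2 pairs, card_biUnion_le).
R1: given alpha, beta take a, b in T with alpha <= a <= 2 alpha, beta <= b <= 2 beta, and replace b by min a b (still in T, still between beta and 2 beta).
card_le_fib with f = Wm c a b on the box: at most (4 A)^D * (4 A)^D values (the height is fixed; cover twice, image inside a product), every fibre lies in the fibre in c.E of a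
point that is not in Hv, so it has at most K2 nL b^(D - sigma) a^sigma <= 2^D K2 nL beta^(D - sigma) alpha^sigma elements. -/

namespace Vale.Agent.P127

open Finset
open scoped Classical

variable {D : ℕ}

theorem lab_r1 {σ : ℝ} {c : Cfg D} {N K K2 : ℝ} {T : Finset ℝ} (hnL : 0 < c.nL) (hN : 1 ≤ N)
    (hK : 1 ≤ K) (hK2 : 0 ≤ K2) (h0 : 0 ≤ σ) (hD : σ ≤ D) (hT : Sc T N K)
    (hH : ∀ α β : ℝ, 1 / N ≤ β → β ≤ α → α ≤ 1 →
      ((Hv σ c K2 α β).card : ℝ) ≤ c.E.card / (2 * K ^ 2)) :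
    ∃ E1 ⊆ c.E, (c.E.card : ℝ) / 2 ≤ E1.card ∧ R1 σ (c.res E1) N (32 ^ D * K2) := by
  obtain ⟨hc, hT1, hT2⟩ := hT
  obtain ⟨Q, hQ⟩ : ∃ Q, Q = (T ×ˢ T).filter fun t => t.2 ≤ t.1 := ⟨_, rfl⟩
  have hB : ((Q.biUnion fun t => Hv σ c K2 t.1 t.2).card : ℝ) ≤ c.E.card / 2 := by
    refine (Nat.cast_le.2 card_biUnion_le).trans ?_
    rw [Nat.cast_sum]
    refine (sum_le_card_nsmul _ _ ((c.E.card : ℝ) / (2 * K ^ 2)) fun t ht => ?_).trans ?_
    · obtain ⟨h1, h2⟩ := mem_filter.1 (hQ ▸ ht)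
      exact hH _ _ (hT1 _ (mem_product.1 h1).2).1 h2 (hT1 _ (mem_product.1 h1).1).2
    · have h1 : (Q.card : ℝ) ≤ K * K := by
        refine (Nat.cast_le.2 (hQ ▸ card_filter_le _ _)).trans ?_
        rw [card_product, Nat.cast_mul]
        exact mul_self_le_mul_self (Nat.cast_nonneg _) hc
      rw [nsmul_eq_mul]
      refine (mul_le_mul_of_nonneg_right h1 (by positivity)).trans (le_of_eq ?_)
      field_simp
  refine ⟨c.E \ Q.biUnion fun t => Hv σ c K2 t.1 t.2, sdiff_subset, ?_,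
    fun A z α β p q hA h1 h2 h3 => ?_⟩
  · have h1 : (c.E.card : ℝ) ≤ (c.E \ Q.biUnion fun t => Hv σ c K2 t.1 t.2).card +
        (Q.biUnion fun t => Hv σ c K2 t.1 t.2).card := by
      exact_mod_cast card_le_card_sdiff_add_card
    linarith
  have hβ : 0 < β := lt_of_lt_of_le (by positivity) h1
  have hα : 0 < α := hβ.trans_le h2
  obtain ⟨a, ha, a1, a2⟩ := hT2 α (h1.trans h2) h3
  obtain ⟨b, hb, b1, b2, b3⟩ : ∃ b ∈ T, β ≤ b ∧ b ≤ 2 * β ∧ b ≤ a := by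
    obtain ⟨b, hb, b1, b2⟩ := hT2 β h1 (h2.trans h3)
    rcases le_total b a with h | h
    · exact ⟨b, hb, b1, b2, h⟩
    · exact ⟨a, ha, h2.trans a1, h.trans b2, le_rfl⟩
  have hab : (a, b) ∈ Q := hQ ▸ mem_filter.2 ⟨mem_product.2 ⟨ha, hb⟩, b3⟩
  change (((c.E \ Q.biUnion fun t => Hv σ c K2 t.1 t.2).filter fun ω => ω.2 = z ∧
    ‖c.e ω.1 - p‖ ≤ A * α ∧ ‖c.pos ω - q‖ ≤ A * β).card : ℝ) ≤
      A ^ (2 * D) * (32 ^ D * K2) * c.nL * β ^ ((D : ℝ) - σ) * α ^ σ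
  generalize hF : ((c.E \ Q.biUnion fun t => Hv σ c K2 t.1 t.2).filter fun ω => ω.2 = z ∧
    ‖c.e ω.1 - p‖ ≤ A * α ∧ ‖c.pos ω - q‖ ≤ A * β) = F
  have hm : ∀ ω ∈ F, (ω ∈ c.E ∧ ω ∉ Hv σ c K2 a b) ∧ ω.2 = z ∧ ‖c.e ω.1 - p‖ ≤ A * α ∧
      ‖c.pos ω - q‖ ≤ A * β := fun ω hω => by
    obtain ⟨h4, h5⟩ := mem_filter.1 (hF ▸ hω)
    exact ⟨⟨(mem_sdiff.1 h4).1, fun h => (mem_sdiff.1 h4).2 (mem_biUnion.2 ⟨_, hab, h⟩)⟩, h5⟩
  have cv : ∀ (g : ℕ × ℝ → V D) (p : V D) {r s : ℝ}, 0 < r → r ≤ s → (∀ ω ∈ F, ‖g ω - p‖ ≤ A * r) →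
      ((F.image fun ω => cell s (g ω)).card : ℝ) ≤ (4 * A) ^ D := fun g p r s hr hs h => by
    have h4 := cover F g p (hr.trans_le hs) (by positivity) h
    rw [Fintype.card_fin] at h4
    refine le_trans (le_of_eq (by congr)) (h4.trans (pow_le_pow_left₀ ?_ ?_ _))
    · have := hr.trans_le hs
      positivity
    · have : 2 * (A * r) / s ≤ 2 * A := by
        rw [div_le_iff₀ (hr.trans_le hs)]
        nlinarith
      linarith
  have c1 := cv (fun ω => c.e ω.1) p hα a1 fun ω hω => (hm ω hω).2.2.1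
  have c2 := cv c.pos q hβ b1 fun ω hω => (hm ω hω).2.2.2
  have h5 := card_le_fib F (Wm c a b) (M := K2 * c.nL * b ^ ((D : ℝ) - σ) * a ^ σ) fun ω hω => by
    refine le_trans (Nat.cast_le.2 (card_le_card fun x hx => ?_))
      (not_lt.1 fun h => (hm ω hω).1.2 (mem_filter.2 ⟨(hm ω hω).1.1, h⟩))
    simp only [mem_filter] at hx ⊢
    exact ⟨(hm x hx.1).1.1, hx.2⟩
  have h6 : K2 * c.nL * b ^ ((D : ℝ) - σ) * a ^ σ ≤
      K2 * c.nL * (2 * β) ^ ((D : ℝ) - σ) * (2 * α) ^ σ := by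
    have := hβ.trans_le b1
    have := hα.trans_le a1
    have : 0 ≤ (D : ℝ) - σ := sub_nonneg.2 hD
    gcongr
  have h7 : (2 : ℝ) ^ ((D : ℝ) - σ) * 2 ^ σ = 2 ^ D := by
    rw [← Real.rpow_add two_pos, sub_add_cancel, Real.rpow_natCast]
  refine h5.trans ((mul_le_mul (b := (4 * A) ^ D * (4 * A) ^ D) ?_ h6 ?_ (by positivity)).trans
    (le_of_eq ?_))
  · refine (Nat.cast_le.2 (card_le_card (t := {z} ×ˢ ((F.image fun ω => cell a (c.e ω.1)) ×ˢ
      F.image fun ω => cell b (c.pos ω))) fun y hy => ?_)).trans ?_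
    · simp only [mem_image] at hy
      obtain ⟨ω, hω, rfl⟩ := hy
      exact mem_product.2 ⟨mem_singleton.2 (hm ω hω).2.1,
        mem_product.2 ⟨mem_image_of_mem _ hω, mem_image_of_mem _ hω⟩⟩
    · rw [card_product, card_product, card_singleton, one_mul, Nat.cast_mul]
      exact mul_le_mul c1 c2 (Nat.cast_nonneg _) (by positivity)
  · have := hβ.trans_le b1
    have := hα.trans_le a1
    positivity
  · rw [Real.mul_rpow zero_le_two hβ.le, Real.mul_rpow zero_le_two hα.le,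
      show (32 : ℝ) = 4 * 4 * 2 by norm_num, mul_pow, mul_pow, mul_pow, ← h7]
    ring

end Vale.Agent.P127
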