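import Vale.Agent.P127.Dec
import Vale.Agent.P127.Lab.Mass

/-! # P127 Lab/Three (TASK): the bound r3.
pop on E with I = T, f rho omega = (omega.2, cell rho (u omega)), R rho = K N / rho^(m - sigma): fibres in E4 have at least nL rho^(m - sigma) / (2 K^3) elements (mass, 0 < card T <= K).
Given beta' take rho in T, beta' <= rho <= 2 beta'; B = the box in E4. image_le_mul: cells beta' of u on B number at most 6^D * card (B.image (f rho)) (cover, cell_close).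
fib_le_card (E := B, E0 := E4): card (B.image (f rho)) * (lower bound) <= card of the omega' in E at height z with norm (u' - q) <= 3 beta, which is at most
C1 3^(4D) K nL beta^(D - sigma) (1/beta)^(D - m) = C1 81^D K nL beta^(m - sigma) (mass_u with A = 3, alpha = 1, beta' := beta, beta := 1, p = q' = 0; be, sub, Pre.norm_pos; m = card S <= D).
Finally beta'^(m - sigma) <= rho^(m - sigma). C = 2 * 6^D * 81^D * C1. -/

namespace Vale.Agent.P127

open Finset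
open scoped Classical

theorem labThree_pow {β σ : ℝ} (hβ : 0 < β) {m D : ℕ} (h : m ≤ D) :
    β ^ ((D : ℝ) - σ) * (1 : ℝ) ^ σ * (1 / β) ^ (D - m) = β ^ ((m : ℝ) - σ) := by
  obtain ⟨j, rfl⟩ := Nat.exists_eq_add_of_le h
  rw [Nat.add_sub_cancel_left, Real.one_rpow, Nat.cast_add, add_sub_right_comm,
    Real.rpow_add_natCast hβ.ne', mul_one, mul_assoc, ← mul_pow, mul_one_div_cancel hβ.ne', one_pow,
    mul_one]

theorem labThree_cnt {Ω β γ : Type} [i : DecidableEq γ] (B E4 G : Finset Ω) (f : Ω → β) (g : Ω → γ)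
    {M M' : ℝ} (hM : 0 < M) (hM' : 0 ≤ M')
    (h1 : ∀ ω, ∀ F : Finset Ω, (∀ ω' ∈ F, f ω' = f ω) → ((F.image g).card : ℝ) ≤ M')
    (h2 : ∀ ω ∈ B, M ≤ ((E4.filter fun ω' => f ω' = f ω).card : ℝ))
    (h3 : ∀ ω' ∈ E4, ∀ ω ∈ B, f ω = f ω' → ω' ∈ G) :
    ((B.image g).card : ℝ) ≤ G.card / M * M' := by
  obtain rfl : i = fun a b => Classical.propDecidable (a = b) := Subsingleton.elim _ _
  refine (image_le_mul B f g fun ω _ => h1 ω _ fun ω' h' => (mem_filter.1 h').2).trans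
    (mul_le_mul_of_nonneg_right ?_ hM')
  rw [le_div_iff₀ hM]
  refine (fib_le_card B E4 f h2).trans (Nat.cast_le.2 (card_le_card fun ω' h' => ?_))
  obtain ⟨a1, a2⟩ := mem_filter.1 h'
  obtain ⟨ω, hω, e⟩ := mem_image.1 a2
  exact h3 ω' a1 ω hω e

theorem lab_r3 (D : ℕ) : ∃ C ≥ (1 : ℝ), ∀ {σ : ℝ} {m : ℕ} {d : Dat D} {N K : ℝ} {T : Finset ℝ},
    d.S.card = m → Pre d.c N N K → Gr d.S d.P → R1 σ d.c N K → Sc T N K → 1 ≤ N → 1 ≤ K →
    0 ≤ σ → σ ≤ m →
    (∀ ρ ∈ T, ((d.c.E.image fun ω => (ω.2, cell ρ (d.u ω))).card : ℝ) ≤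
      K * N / ρ ^ ((m : ℝ) - σ)) →
    ∃ E4 ⊆ d.c.E, (d.c.E.card : ℝ) / 2 ≤ E4.card ∧ R3 σ m (d.res E4) N (C * K ^ 4) := by
  obtain ⟨C1, hC1, hm⟩ := mass_u D
  refine ⟨6 ^ D * (2 * (C1 * 3 ^ (4 * D))), ?_, ?_⟩
  · exact one_le_mul_of_one_le_of_one_le (one_le_pow₀ (by norm_num))
      (one_le_mul_of_one_le_of_one_le one_le_two
        (one_le_mul_of_one_le_of_one_le hC1 (one_le_pow₀ (by norm_num))))
  intro σ m d N K T hS hP hG hR hT hN hK _ hσ hcov
  obtain ⟨E4, hsub, hcard, hfib⟩ := pop d.c.E T (fun ρ ω => (ω.2, cell ρ (d.u ω)))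
    (fun ρ => K * N / ρ ^ ((m : ℝ) - σ)) fun ρ hρ => by
      simpa only [image_cd, filter_cd] using hcov ρ hρ
  refine ⟨E4, hsub, hcard, fun z β β' q h1 h2 h3 => ?_⟩
  obtain ⟨ρ, hρ, r1, r2⟩ := hT.2.2 β' h1 (h2.trans h3)
  have N0 : 0 < N := by linarith
  have K0 : 0 < K := by linarith
  have b0 : 0 < β' := (one_div_pos.2 N0).trans_le h1
  have b1 : 0 < β := b0.trans_le h2
  have r0 : 0 < ρ := b0.trans_le r1
  have L0 := hP.nL_pos
  have T0 : (0 : ℝ) < T.card := Nat.cast_pos.2 (card_pos.2 ⟨ρ, hρ⟩)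
  have hmD : m ≤ D := hS ▸ (card_le_univ d.S).trans_eq (Fintype.card_fin D)
  have p1 : 0 < β' ^ ((m : ℝ) - σ) := Real.rpow_pos_of_pos b0 _
  have p2 : β' ^ ((m : ℝ) - σ) ≤ ρ ^ ((m : ℝ) - σ) := Real.rpow_le_rpow b0.le r1 (by linarith)
  have p3 : 0 < ρ ^ ((m : ℝ) - σ) := p1.trans_le p2
  have low : d.c.nL * β' ^ ((m : ℝ) - σ) / (2 * K ^ 3) ≤
      (d.c.E.card : ℝ) / (2 * T.card * (K * N / ρ ^ ((m : ℝ) - σ))) := by
    calc d.c.nL * β' ^ ((m : ℝ) - σ) / (2 * K ^ 3)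
        ≤ d.c.nL * ρ ^ ((m : ℝ) - σ) / (2 * K ^ 3) := by gcongr
      _ = d.c.nL * N / K / (2 * K * (K * N / ρ ^ ((m : ℝ) - σ))) := by field_simp
      _ ≤ _ := by
        gcongr
        exacts [hP.mass, hT.1]
  have s3 := hm hG hR hN K0.le L0 3 z 1 1 β 0 q 0 (by norm_num) (h1.trans h2) h3 h3 le_rfl
  rw [hS, mul_assoc _ (β ^ _), mul_assoc _ (β ^ _ * _), labThree_pow b1 hmD] at s3
  refine (labThree_cnt (E4.filter fun ω => ω.2 = z ∧ ‖d.u ω - q‖ ≤ β) E4 _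
    (fun ω => (ω.2, cell ρ (d.u ω))) (fun ω => cell β' (d.u ω))
    (M := d.c.nL * β' ^ ((m : ℝ) - σ) / (2 * K ^ 3)) (M' := 6 ^ D) (by positivity) (by positivity)
    (fun ω F hF => ?_) (fun ω hω => low.trans (hfib ρ hρ ω (mem_filter.1 hω).1))
    fun ω' a1 ω hω e => ?_).trans ((mul_le_mul_of_nonneg_right
      (div_le_div_of_nonneg_right s3 (by positivity)) (by positivity)).trans_eq ?_)
  · refine (cover F d.u (d.u ω) b0 r0.le fun ω' h' =>
      cell_close r0 (congrArg Prod.snd (hF ω' h'))).trans ?_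
    rw [Fintype.card_fin]
    refine pow_le_pow_left₀ (by positivity) ?_ _
    have : 2 * ρ / β' ≤ 4 := by
      rw [div_le_iff₀ b0]
      linarith
    linarith
  · obtain ⟨-, a3, a4⟩ := mem_filter.1 hω
    have a5 := cell_close r0 (congrArg Prod.snd e.symm)
    have a6 := hP.be _ (mem_product.1 (hP.sub (hsub a1))).1
    have a7 := hP.norm_pos (hsub a1)
    have a8 := norm_sub_le_norm_sub_add_norm_sub (d.u ω') (d.u ω) q
    refine mem_filter.2 ⟨hsub a1, (congrArg Prod.fst e).symm.trans a3, ?_, ?_, ?_⟩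
    · rw [sub_zero]
      linarith
    · linarith
    · rw [sub_zero]
      linarith
  · rw [Real.div_rpow b1.le b0.le]
    field_simp

end Vale.Agent.P127
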