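import Vale.Agent.P127.Lab.Cnt

/-! # P127 Lab/Two (TASK): the bound r2.
pop on c.E with I = T, f rho omega = (cz rho omega.2, cell rho e, cell rho pos), R rho = 4 * 32^D K / rho^(D+1) (cnt_f2): fibres in E2 have at least
nL N rho^(D+1) / (8 * 32^D K^3) elements (h.mass, card T <= K, card T > 0). Given alpha' take rho in T, alpha' <= rho <= 2 alpha'; B = the box in E2.
image_le_mul: the cells alpha' of e on B number at most 6^D * card (B.image (f rho)) (cover, cell_close). fib_le_card (E := B, E0 := E2): card (B.image (f rho)) * (lower bound) <= card of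
the omega' in c.E with abs (z' - z0) <= 3 alpha', norm (pos' - q) <= 3 alpha', norm (e' - p) <= 3 alpha, which is at most (K * (3 alpha') * N) * (3^(2D) K nL alpha'^(D - sigma) alpha^sigma)
(card_le_fib with f = Prod.snd, h.hts, h.sub, R1 with A = 3). C = 24 * 1728^D works. -/

namespace Vale.Agent.P127

open Finset
open scoped Classical

theorem labTwo_pop {Ω ι β : Type} [i : DecidableEq β] (E : Finset Ω) (I : Finset ι)
    (f : ι → Ω → β) (R : ι → ℝ) (hR : ∀ i ∈ I, ((E.image (f i)).card : ℝ) ≤ R i) :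
    ∃ E' ⊆ E, (E.card : ℝ) / 2 ≤ E'.card ∧ ∀ i ∈ I, ∀ ω ∈ E',
      (E.card : ℝ) / (2 * I.card * R i) ≤ ((E'.filter fun ω' => f i ω' = f i ω).card : ℝ) := by
  obtain rfl : i = fun a b => Classical.propDecidable (a = b) := Subsingleton.elim _ _
  exact pop E I f R hR

theorem labTwo_img {Ω β γ : Type} [i : DecidableEq β] [j : DecidableEq γ] (E : Finset Ω)
    (f : Ω → β) (g : Ω → γ) {M : ℝ}
    (h : ∀ ω ∈ E, (((E.filter fun ω' => f ω' = f ω).image g).card : ℝ) ≤ M) :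
    ((E.image g).card : ℝ) ≤ (E.image f).card * M := by
  obtain rfl : i = fun a b => Classical.propDecidable (a = b) := Subsingleton.elim _ _
  obtain rfl : j = fun a b => Classical.propDecidable (a = b) := Subsingleton.elim _ _
  exact image_le_mul E f g h

theorem labTwo_fib {Ω β : Type} [i : DecidableEq β] (E E0 G : Finset Ω) (f : Ω → β) {M : ℝ}
    (h : ∀ ω ∈ E, M ≤ ((E0.filter fun ω' => f ω' = f ω).card : ℝ))
    (hG : ∀ ω ∈ E, ∀ ω' ∈ E0, f ω = f ω' → ω' ∈ G) :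
    ((E.image f).card : ℝ) * M ≤ (G.card : ℝ) := by
  obtain rfl : i = fun a b => Classical.propDecidable (a = b) := Subsingleton.elim _ _
  refine (fib_le_card E E0 f h).trans (Nat.cast_le.2 (card_le_card fun ω' h' => ?_))
  obtain ⟨h1, h2⟩ := mem_filter.1 h'
  obtain ⟨ω, hω, h3⟩ := mem_image.1 h2
  exact hG ω hω ω' h1 h3

theorem labTwo_card {Ω β : Type} [i : DecidableEq β] (E : Finset Ω) (f : Ω → β) {M : ℝ}
    (h : ∀ ω ∈ E, ((E.filter fun ω' => f ω' = f ω).card : ℝ) ≤ M) :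
    (E.card : ℝ) ≤ (E.image f).card * M := by
  obtain rfl : i = fun a b => Classical.propDecidable (a = b) := Subsingleton.elim _ _
  exact card_le_fib E f h

theorem labTwo_alg {D : ℕ} {X n N K a s t : ℝ} (hn : 0 < n) (hN : 0 < N) (hK : 0 < K)
    (ha : 0 < a) (ht : 0 < t)
    (h : X * (n * N * a ^ (D + 1) / (8 * 32 ^ D * K ^ 3)) ≤
      K * (3 * a) * N * (3 ^ (2 * D) * K * n * (a ^ D / t) * s)) :
    X * 6 ^ D ≤ 24 * 1728 ^ D * K ^ 5 * (s / t) := by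
  have h0 : 0 < n * N * a ^ (D + 1) / (8 * 32 ^ D * K ^ 3) := by positivity
  rw [← le_div_iff₀ h0] at h
  refine (mul_le_mul_of_nonneg_right h (by positivity)).trans (le_of_eq ?_)
  have e1 : (1728 : ℝ) ^ D = 32 ^ D * 3 ^ (2 * D) * 6 ^ D := by
    rw [pow_mul, ← mul_pow, ← mul_pow]
    norm_num
  rw [e1]
  field_simp
  ring

theorem lab_r2 (D : ℕ) : ∃ C ≥ (1 : ℝ), ∀ {σ : ℝ} {c : Cfg D} {N K : ℝ} {T : Finset ℝ},
    Good c N N K → R1 σ c N K → Sc T N K → 1 ≤ N → 1 ≤ K → 0 ≤ σ → σ ≤ D →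
    ∃ E2 ⊆ c.E, (c.E.card : ℝ) / 2 ≤ E2.card ∧ R2 σ (c.res E2) N (C * K ^ 5) := by
  refine ⟨24 * 1728 ^ D, ?_, ?_⟩
  · have : (1 : ℝ) ≤ 1728 ^ D := one_le_pow₀ (by norm_num)
    linarith
  intro σ c N K T h hR hT hN hK _ _
  have hN0 : 0 < N := by linarith
  have hK0 : 0 < K := by linarith
  have hn := h.nL_pos
  obtain ⟨E2, hE2, hc, hp⟩ := labTwo_pop c.E T
    (fun ρ ω => (cz ρ ω.2, cell ρ (c.e ω.1), cell ρ (c.pos ω)))
    (fun ρ => 4 * 32 ^ D * K / ρ ^ (D + 1))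
    fun ρ hρ => cnt_f2 h hN hK (hT.2.1 ρ hρ).1 (hT.2.1 ρ hρ).2
  refine ⟨E2, hE2, hc, fun z0 α α' p q h1 h2 h3 => ?_⟩
  have ha : 0 < α' := lt_of_lt_of_le (by positivity) h1
  obtain ⟨ρ, hρ, hρ1, hρ2⟩ := hT.2.2 α' h1 (h2.trans h3)
  have hρ0 : 0 < ρ := ha.trans_le hρ1
  have hT0 : (0 : ℝ) < T.card := Nat.cast_pos.2 (card_pos.2 ⟨ρ, hρ⟩)
  have hlow : c.nL * N * α' ^ (D + 1) / (8 * 32 ^ D * K ^ 3) ≤
      (c.E.card : ℝ) / (2 * T.card * (4 * 32 ^ D * K / ρ ^ (D + 1))) := by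
    calc c.nL * N * α' ^ (D + 1) / (8 * 32 ^ D * K ^ 3)
        = c.nL * N / K / (2 * K * (4 * 32 ^ D * K / α' ^ (D + 1))) := by
          field_simp
          ring
      _ ≤ _ := by
          have := h.mass
          have := hT.1
          gcongr
  show (((E2.filter fun ω => |ω.2 - z0| ≤ α' ∧ ‖c.pos ω - q‖ ≤ α' ∧
    ‖c.e ω.1 - p‖ ≤ α).image fun ω => cell α' (c.e ω.1)).card : ℝ) ≤ _
  set B := E2.filter fun ω => |ω.2 - z0| ≤ α' ∧ ‖c.pos ω - q‖ ≤ α' ∧ ‖c.e ω.1 - p‖ ≤ α with hB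
  set G := c.E.filter fun ω => |ω.2 - z0| ≤ 3 * α' ∧ ‖c.e ω.1 - p‖ ≤ 3 * α ∧
    ‖c.pos ω - q‖ ≤ 3 * α' with hG
  have k1 := labTwo_img B (fun ω => (cz ρ ω.2, cell ρ (c.e ω.1), cell ρ (c.pos ω)))
    (fun ω => cell α' (c.e ω.1)) (M := 6 ^ D) fun ω _ => by
      have k := cover (B.filter fun ω' => (cz ρ ω'.2, cell ρ (c.e ω'.1), cell ρ (c.pos ω')) =
        (cz ρ ω.2, cell ρ (c.e ω.1), cell ρ (c.pos ω))) (fun ω => c.e ω.1) (c.e ω.1) ha hρ0.le
        fun ω' h' => cell_close hρ0 (congrArg (fun x => x.2.1) (mem_filter.1 h').2)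
      rw [Fintype.card_fin] at k
      refine k.trans (pow_le_pow_left₀ (by positivity) ?_ D)
      have : 2 * ρ / α' ≤ 4 := by
        rw [div_le_iff₀ ha]
        linarith
      linarith
  have k2 := labTwo_fib B E2 G (fun ω => (cz ρ ω.2, cell ρ (c.e ω.1), cell ρ (c.pos ω)))
    (fun ω hω => hlow.trans (hp ρ hρ ω (mem_filter.1 hω).1)) fun ω hω ω' hω' he => by
      obtain ⟨-, b1, b2, b3⟩ := mem_filter.1 hω
      have c1 := cz_close hρ0 (congrArg (fun x => x.1) he.symm)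
      have c2 := cell_close hρ0 (congrArg (fun x => x.2.1) he.symm)
      have c3 := cell_close hρ0 (congrArg (fun x => x.2.2) he.symm)
      refine mem_filter.2 ⟨hE2 hω', ?_, ?_, ?_⟩
      · linarith [abs_sub_le ω'.2 ω.2 z0]
      · linarith [norm_sub_le_norm_sub_add_norm_sub (c.e ω'.1) (c.e ω.1) p]
      · linarith [norm_sub_le_norm_sub_add_norm_sub (c.pos ω') (c.pos ω) q]
  have k3 := labTwo_card G Prod.snd
    (M := 3 ^ (2 * D) * K * c.nL * α' ^ ((D : ℝ) - σ) * α ^ σ) fun ω _ => by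
      refine le_trans (Nat.cast_le.2 (card_le_card fun ω' h' => ?_))
        (hR 3 ω.2 α α' p q (by norm_num) h1 h2 h3)
      obtain ⟨b1, b2⟩ := mem_filter.1 h'
      obtain ⟨b3, -, b4⟩ := mem_filter.1 b1
      exact mem_filter.2 ⟨b3, b2, b4⟩
  have k4 : ((G.image Prod.snd).card : ℝ) ≤ K * (3 * α') * N := by
    refine le_trans (Nat.cast_le.2 (card_le_card fun z hz => ?_))
      (h.hts z0 (3 * α') (by linarith))
    obtain ⟨ω, hω, rfl⟩ := mem_image.1 hz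
    obtain ⟨b1, b2, -⟩ := mem_filter.1 hω
    exact mem_filter.2 ⟨(mem_product.1 (h.sub b1)).2, b2⟩
  have hα : 0 < α := ha.trans_le h2
  have k5 := k2.trans (k3.trans (mul_le_mul_of_nonneg_right k4 (by positivity)))
  rw [Real.rpow_sub ha, Real.rpow_natCast] at k5
  rw [Real.div_rpow hα.le ha.le]
  exact k1.trans (labTwo_alg hn hN0 hK0 ha (Real.rpow_pos_of_pos ha σ) k5)

end Vale.Agent.P127
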