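import Vale.Agent.P127.Dec
import Vale.Agent.P127.Lab.Kit

/-! # P127 Lab/Cnt (TASK): number of tube segments.
cnt_t: image_le_mul three times. (t z, cell e): at most card (image t) * (2/rho + 2)^D <= card * (4/rho)^D values (image inside a product, cover with q = 0, h.be).
(t z, cell e, cell x): at most K values for each of them (h.st with p = e omega.1, cell_close). (t z, cell e, cell pos): at most 8^D values for each of these, since
pos' - pos = (x' - x) + z' (e' - e) + (z' - z) e has norm at most 3 rho (cover).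
cnt_f1: t = id, image inside c.Z, Pre.cardZ. cnt_f2: t = cz rho, cover_z with q = 0 gives 2/rho + 2 <= 4/rho. -/

namespace Vale.Agent.P127

open Finset
open scoped Classical

variable {D : ℕ}

theorem labCnt_step {Ω β γ δ : Type} [iβ : DecidableEq β] [iγ : DecidableEq γ] [DecidableEq δ]
    (E : Finset Ω) (f : Ω → β) (g : Ω → γ) (k : Ω → δ)
    (hk : ∀ ω ω', f ω = f ω' → k ω = k ω' → g ω = g ω') {M : ℝ}
    (h : ∀ ω ∈ E, ∀ F ⊆ E, (∀ ω' ∈ F, f ω' = f ω) → ((F.image k).card : ℝ) ≤ M) :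
    ((E.image g).card : ℝ) ≤ (E.image f).card * M := by
  obtain rfl : iβ = fun a b => Classical.propDecidable (a = b) := Subsingleton.elim _ _
  obtain rfl : iγ = fun a b => Classical.propDecidable (a = b) := Subsingleton.elim _ _
  refine image_le_mul E f g fun ω hω => le_trans (Nat.cast_le.2 ?_)
    (h ω hω _ (filter_subset (fun ω' => f ω' = f ω) E) fun ω' h' => (mem_filter.1 h').2)
  refine card_le_card_of_forall_subsingleton
    (fun y d => ∃ a, f a = f ω ∧ g a = y ∧ k a = d) (fun y hy => ?_) fun d _ y hy y' hy' => ?_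
  · obtain ⟨a, ha, rfl⟩ := mem_image.1 hy
    exact ⟨k a, mem_image_of_mem k ha, a, (mem_filter.1 ha).2, rfl, rfl⟩
  · obtain ⟨a, h1, rfl, h2⟩ := hy.2
    obtain ⟨b, h3, rfl, h4⟩ := hy'.2
    exact hk a b (h1.trans h3.symm) (h2.trans h4.symm)

theorem labCnt_cover {Ω : Type} [i : DecidableEq (Fin D → ℤ)] (E : Finset Ω) (a : Ω → V D)
    (q : V D) {β ρ : ℝ} (hβ : 0 < β) (hρ : 0 ≤ ρ) (h : ∀ ω ∈ E, ‖a ω - q‖ ≤ ρ) :
    ((E.image fun ω => cell β (a ω)).card : ℝ) ≤ (2 * ρ / β + 2) ^ D := by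
  have := cover E a q hβ hρ h
  rw [Fintype.card_fin] at this
  simpa only [image_cd, filter_cd] using this

theorem cnt_t {τ : Type} {c : Cfg D} {N H K ρ : ℝ} (h : Good c N H K) (hN : 1 ≤ N)
    (h1 : 1 / N ≤ ρ) (h2 : ρ ≤ 1) (t : ℝ → τ) (ht : ∀ z z', t z = t z' → |z - z'| ≤ ρ) :
    ((c.E.image fun ω => (t ω.2, cell ρ (c.e ω.1), cell ρ (c.pos ω))).card : ℝ) ≤
      (c.E.image fun ω => t ω.2).card * (32 ^ D * K / ρ ^ D) := by
  have ρ0 : 0 < ρ := lt_of_lt_of_le (by positivity) h1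
  have hL : ∀ ω ∈ c.E, ω.1 ∈ c.L := fun ω hω => (mem_product.1 (h.sub hω)).1
  have K0 : 0 ≤ K := (Nat.cast_nonneg _).trans (h.st 0 ρ h1 h2)
  have s1 := labCnt_step c.E (fun ω => t ω.2) (fun ω => (t ω.2, cell ρ (c.e ω.1)))
    (fun ω => cell ρ (c.e ω.1)) (fun _ _ a b => Prod.ext a b) (M := (4 / ρ) ^ D)
    fun ω _ F hF _ => by
      refine (labCnt_cover F (fun ω => c.e ω.1) 0 ρ0 zero_le_one fun ω' h' => by
        simpa using h.be _ (hL _ (hF h'))).trans (pow_le_pow_left₀ (by positivity) ?_ D)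
      have : 2 ≤ 2 / ρ := (le_div_iff₀ ρ0).2 (by linarith)
      rw [show 4 / ρ = 2 * 1 / ρ + 2 / ρ by ring]
      linarith
  have s2 := labCnt_step c.E (fun ω => (t ω.2, cell ρ (c.e ω.1)))
    (fun ω => ((t ω.2, cell ρ (c.e ω.1)), cell ρ (c.x ω.1))) (fun ω => cell ρ (c.x ω.1))
    (fun _ _ a b => Prod.ext a b) (M := K) fun ω _ F hF hf => by
      refine le_trans (Nat.cast_le.2 (card_le_card fun y hy => ?_)) (h.st (c.e ω.1) ρ h1 h2)
      obtain ⟨a, ha, rfl⟩ := mem_image.1 hy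
      exact mem_image.2 ⟨a.1, mem_filter.2 ⟨hL _ (hF ha),
        cell_close ρ0 (congrArg Prod.snd (hf a ha))⟩, rfl⟩
  have s3 := labCnt_step c.E (fun ω => ((t ω.2, cell ρ (c.e ω.1)), cell ρ (c.x ω.1)))
    (fun ω => (t ω.2, cell ρ (c.e ω.1), cell ρ (c.pos ω))) (fun ω => cell ρ (c.pos ω))
    (fun _ _ a b => Prod.ext (congrArg (·.1.1) a) (Prod.ext (congrArg (·.1.2) a) b))
    (M := 8 ^ D) fun ω hω F hF hf => by
      refine (labCnt_cover F c.pos (c.pos ω) ρ0 (by positivity : 0 ≤ 3 * ρ) fun a ha => ?_).trans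
        (le_of_eq (by congr 1; field_simp; norm_num))
      have e1 : ‖c.x a.1 - c.x ω.1‖ ≤ ρ := cell_close ρ0 (congrArg Prod.snd (hf a ha))
      have e2 : ‖c.e a.1 - c.e ω.1‖ ≤ ρ := cell_close ρ0 (congrArg (·.1.2) (hf a ha))
      have e3 : |a.2 - ω.2| ≤ ρ := ht _ _ (congrArg (·.1.1) (hf a ha))
      have e4 := h.bz _ (mem_product.1 (h.sub (hF ha))).2
      have e5 := h.be _ (hL _ hω)
      have e : c.pos a - c.pos ω =
          (c.x a.1 - c.x ω.1) + a.2 • (c.e a.1 - c.e ω.1) + (a.2 - ω.2) • c.e ω.1 := by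
        simp only [Cfg.pos, smul_sub, sub_smul]
        abel
      rw [e]
      refine norm_add₃_le.trans ?_
      rw [norm_smul, norm_smul, Real.norm_of_nonneg e4.1, Real.norm_eq_abs]
      have := mul_le_mul e4.2 e2 (norm_nonneg _) zero_le_one
      have := mul_le_mul e3 e5 (norm_nonneg _) ρ0.le
      linarith
  refine s3.trans ((mul_le_mul_of_nonneg_right (s2.trans (mul_le_mul_of_nonneg_right s1 K0))
    (by positivity)).trans (le_of_eq ?_))
  rw [show (32 : ℝ) = 4 * 8 by norm_num, mul_pow, div_pow]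
  ring

theorem cnt_f1 {c : Cfg D} {N K ρ : ℝ} (h : Good c N N K) (hN : 1 ≤ N) (hK : 1 ≤ K)
    (h1 : 1 / N ≤ ρ) (h2 : ρ ≤ 1) :
    ((c.E.image (Wm c ρ ρ)).card : ℝ) ≤ 32 ^ D * K ^ 2 * N / ρ ^ D := by
  have ρ0 : 0 < ρ := lt_of_lt_of_le (by positivity) h1
  have h3 := cnt_t h hN h1 h2 (fun z => z) fun z z' e => by
    rw [show z = z' from e, sub_self, abs_zero]
    exact ρ0.le
  have h4 : ((c.E.image fun ω => ω.2).card : ℝ) ≤ K * N := by
    refine le_trans (Nat.cast_le.2 (card_le_card fun y hy => ?_)) (h.toPre.cardZ hN)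
    obtain ⟨a, ha, rfl⟩ := mem_image.1 hy
    exact (mem_product.1 (h.sub ha)).2
  unfold Wm
  calc _ ≤ ((c.E.image fun ω => ω.2).card : ℝ) * (32 ^ D * K / ρ ^ D) := by convert h3
    _ ≤ K * N * (32 ^ D * K / ρ ^ D) := by gcongr
    _ = _ := by ring

theorem cnt_f2 {c : Cfg D} {N K ρ : ℝ} (h : Good c N N K) (hN : 1 ≤ N) (hK : 1 ≤ K)
    (h1 : 1 / N ≤ ρ) (h2 : ρ ≤ 1) :
    ((c.E.image fun ω => (cz ρ ω.2, cell ρ (c.e ω.1), cell ρ (c.pos ω))).card : ℝ) ≤
      4 * 32 ^ D * K / ρ ^ (D + 1) := by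
  have ρ0 : 0 < ρ := lt_of_lt_of_le (by positivity) h1
  have h3 := cnt_t h hN h1 h2 (cz ρ) fun z z' e => cz_close ρ0 e
  have h4 := cover_z c.E (fun ω => ω.2) 0 ρ0 zero_le_one fun a ha => by
    have := h.bz _ (mem_product.1 (h.sub ha)).2
    rw [sub_zero, abs_of_nonneg this.1]
    exact this.2
  have h5 : 2 * 1 / ρ + 2 ≤ 4 / ρ := by
    have : 2 ≤ 2 / ρ := (le_div_iff₀ ρ0).2 (by linarith)
    rw [show 4 / ρ = 2 * 1 / ρ + 2 / ρ by ring]
    linarith
  calc _ ≤ ((c.E.image fun ω => cz ρ ω.2).card : ℝ) * (32 ^ D * K / ρ ^ D) := by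
        simpa only [image_cd, filter_cd] using h3
    _ ≤ 4 / ρ * (32 ^ D * K / ρ ^ D) := by
      gcongr
      exact h4.trans h5
    _ = _ := by
      field_simp
      ring

end Vale.Agent.P127
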